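import Vale.Agent.P246.R2.H429.Defs5

/-! # P246 (helper252), row HOM: presentation complexes of one presentation are homeomorphic -/

set_option autoImplicit false
set_option linter.unusedSectionVars false

namespace Vale.Agent.P246.H252

open Vale.Agent.P246 Vale.Agent.P246.T Vale.Agent.P246.H429 Topology Set Metric

instance compactDk (n : ℕ) : CompactSpace (Dk n) :=
  isCompact_iff_compactSpace.1 (isCompact_closedBall _ _)

/-- two maps from a compact space with the same kernel have homeomorphic images -/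
theorem homeo_of_ker {K A B : Type} [TopologicalSpace K] [CompactSpace K] [TopologicalSpace A]
    [T2Space A] [TopologicalSpace B] [T2Space B] (f : K → A) (g : K → B) (hf : Continuous f)
    (hg : Continuous g) (sf : Function.Surjective f) (sg : Function.Surjective g)
    (h : ∀ a b, f a = f b ↔ g a = g b) : Nonempty (A ≃ₜ B) := by
  have : CompactSpace A := ⟨by
    have := isCompact_range hf
    rwa [sf.range_eq] at this⟩
  choose u hu using sf
  choose v hv using sg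
  have qf : IsQuotientMap f := hf.isClosedMap.isQuotientMap hf (fun a => ⟨u a, hu a⟩)
  have e1 : ∀ k, g (u (f k)) = g k := fun k => (h _ _).1 (hu (f k))
  have e2 : ∀ k, f (v (g k)) = f k := fun k => (h _ _).2 (hv (g k))
  let e : A ≃ B :=
    { toFun := fun a => g (u a)
      invFun := fun b => f (v b)
      left_inv := fun a => (e2 (u a)).trans (hu a)
      right_inv := fun b => (e1 (v b)).trans (hv b) }
  have hc : Continuous e := by
    rw [qf.continuous_iff]
    refine hg.congr fun k => ?_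
    exact (e1 k).symm
  exact ⟨hc.homeoOfEquivCompactToT2⟩

theorem par_two (t : I) : par (2 * (t : ℝ) - 1) = t := by
  unfold par
  have : (2 * (t : ℝ) - 1 + 1) / 2 = t := by ring
  rw [this]
  exact Set.projIcc_val zero_le_one t

section

variable {G : Type} [Group G] {Pr : FinPresentation G} {X E : Type} [TopologicalSpace X]
  [TopologicalSpace E] [MulAction G E] [ContinuousConstSMul G E] {p : C(E, X)}
  {X' E' : Type} [TopologicalSpace X'] [TopologicalSpace E'] [MulAction G E']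
  [ContinuousConstSMul G E'] {p' : C(E', X')}

/-- the disjoint union of the cells -/
abbrev KK (Pr : FinPresentation G) : Type := Unit ⊕ ((Fin Pr.gens × Dk 1) ⊕ (Fin Pr.rels × Dk 2))

/-- the characteristic maps -/
noncomputable def kap (c : PresCx Pr p) : KK Pr → X
  | Sum.inl _ => p c.e
  | Sum.inr (Sum.inl q) => p (c.edge q.1 q.2)
  | Sum.inr (Sum.inr q) => p (c.b q.1 q.2)

/-- the open cells -/
def isInt : KK Pr → Prop
  | Sum.inl _ => True
  | Sum.inr (Sum.inl q) => ‖(q.2 : Fin 1 → ℝ)‖ < 1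
  | Sum.inr (Sum.inr q) => ‖(q.2 : Fin 2 → ℝ)‖ < 1

theorem kap_cont (c : PresCx Pr p) : Continuous (kap c) := by
  refine continuous_sum_dom.2 ⟨continuous_const, continuous_sum_dom.2 ⟨?_, ?_⟩⟩
  · refine continuous_prod_of_discrete_left.2 fun i => ?_
    exact p.continuous.comp (c.edge i).continuous
  · refine continuous_prod_of_discrete_left.2 fun j => ?_
    exact p.continuous.comp (c.b j).continuous

theorem nfA (c : PresCx Pr p) (c' : PresCx Pr p') (hp : ∀ (g : G) e, p (g • e) = p e)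
    (hp' : ∀ (g : G) e, p' (g • e) = p' e) (i : Fin Pr.gens) (t : I) :
    ∃ y : KK Pr, isInt y ∧ p (c.a i t) = kap c y ∧ p' (c'.a i t) = kap c' y := by
  by_cases h0 : t = 0
  · refine ⟨Sum.inl (), trivial, ?_, ?_⟩
    · rw [h0, Path.source]; rfl
    · rw [h0, Path.source]; rfl
  · by_cases h1 : t = 1
    · refine ⟨Sum.inl (), trivial, ?_, ?_⟩
      · rw [h1, Path.target, hp]; rfl
      · rw [h1, Path.target, hp']; rfl
    · have ht0 : (0 : ℝ) < t := lt_of_le_of_ne t.2.1 fun hh => h0 (Subtype.ext hh.symm)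
      have ht1 : (t : ℝ) < 1 := lt_of_le_of_ne t.2.2 fun hh => h1 (Subtype.ext hh)
      have hn : ‖(fun _ : Fin 1 => (2 * (t : ℝ) - 1))‖ < 1 := by
        rw [pi_norm_const, Real.norm_eq_abs, abs_lt]
        constructor <;> linarith
      refine ⟨Sum.inr (Sum.inl (i, ⟨fun _ => 2 * (t : ℝ) - 1,
        mem_closedBall_zero_iff.2 hn.le⟩)), hn, ?_, ?_⟩
      · show p (c.a i t) = p (c.a i (par (2 * (t : ℝ) - 1)))
        rw [par_two]
      · show p' (c'.a i t) = p' (c'.a i (par (2 * (t : ℝ) - 1)))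
        rw [par_two]

theorem nfL (c : PresCx Pr p) (c' : PresCx Pr p') (hp : ∀ (g : G) e, p (g • e) = p e)
    (hp' : ∀ (g : G) e, p' (g • e) = p' e) (l : Fin Pr.gens × Bool) (t : I) :
    ∃ y : KK Pr, isInt y ∧ p (lpath Pr.x c.a l t) = kap c y ∧
      p' (lpath Pr.x c'.a l t) = kap c' y := by
  rcases l with ⟨i, _ | _⟩
  · obtain ⟨y, hy, h1, h2⟩ := nfA c c' hp hp' i (unitInterval.symm t)
    refine ⟨y, hy, ?_, ?_⟩
    · rw [← h1]; exact hp _ _
    · rw [← h2]; exact hp' _ _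
  · exact nfA c c' hp hp' i t

theorem nfW (c : PresCx Pr p) (c' : PresCx Pr p') (hp : ∀ (g : G) e, p (g • e) = p e)
    (hp' : ∀ (g : G) e, p' (g • e) = p' e) (w : List (Fin Pr.gens × Bool)) :
    ∀ t : I, ∃ y : KK Pr, isInt y ∧ p (wpath Pr.x c.a w t) = kap c y ∧
      p' (wpath Pr.x c'.a w t) = kap c' y := by
  induction w with
  | nil => exact fun t => ⟨Sum.inl (), trivial, rfl, rfl⟩
  | cons l w ih =>
    intro t
    have e1 : wpath Pr.x c.a (l :: w) t =
        ((lpath Pr.x c.a l).trans (gpath (lval Pr.x l) (wpath Pr.x c.a w))) t := rfl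
    have e2 : wpath Pr.x c'.a (l :: w) t =
        ((lpath Pr.x c'.a l).trans (gpath (lval Pr.x l) (wpath Pr.x c'.a w))) t := rfl
    rw [e1, e2, Path.trans_apply, Path.trans_apply]
    by_cases h : (t : ℝ) ≤ 1 / 2
    · rw [dif_pos h, dif_pos h]
      exact nfL c c' hp hp' l _
    · rw [dif_neg h, dif_neg h]
      obtain ⟨y, hy, h1, h2⟩ := ih ⟨2 * t - 1, unitInterval.two_mul_sub_one_mem_iff.2
        ⟨(not_le.1 h).le, t.2.2⟩⟩
      refine ⟨y, hy, ?_, ?_⟩
      · rw [← h1]; exact hp _ _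
      · rw [← h2]; exact hp' _ _

theorem nf (c : PresCx Pr p) (c' : PresCx Pr p') (hp : ∀ (g : G) e, p (g • e) = p e)
    (hp' : ∀ (g : G) e, p' (g • e) = p' e) (x : KK Pr) :
    ∃ y : KK Pr, isInt y ∧ kap c x = kap c y ∧ kap c' x = kap c' y := by
  rcases x with x | ⟨i, z⟩ | ⟨j, z⟩
  · exact ⟨Sum.inl x, trivial, rfl, rfl⟩
  · exact nfA c c' hp hp' i (par ((z : Fin 1 → ℝ) 0))
  · have hz : ‖(z : Fin 2 → ℝ)‖ ≤ 1 := mem_closedBall_zero_iff.1 z.2
    rcases hz.lt_or_eq with h | h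
    · exact ⟨Sum.inr (Sum.inr (j, z)), h, rfl, rfl⟩
    · by_cases h0 : (z : Fin 2 → ℝ) 0 = 1
      · obtain ⟨y, hy, h1, h2⟩ := nfW c c' hp hp' (Pr.r j).toWord (par ((z : Fin 2 → ℝ) 1))
        refine ⟨y, hy, ?_, ?_⟩
        · rw [← h1]
          show p (c.b j z) = _
          rw [(c.bdry j z h).1 h0]
        · rw [← h2]
          show p' (c'.b j z) = _
          rw [(c'.bdry j z h).1 h0]
      · refine ⟨Sum.inl (), trivial, ?_, ?_⟩
        · show p (c.b j z) = _
          rw [(c.bdry j z h).2 h0]; rfl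
        · show p' (c'.b j z) = _
          rw [(c'.bdry j z h).2 h0]; rfl

theorem mem_of_eq' {s : Set X} {a b : X} (h : a = b) (ha : a ∈ s) : b ∈ s := h ▸ ha

theorem e_mem_Y1 (c : PresCx Pr p) (k : ℕ) : p c.e ∈ c.Y1 k := Or.inl rfl

theorem edge_mem_Y1 (c : PresCx Pr p) (i : Fin Pr.gens) (z : Dk 1) {k : ℕ} (h : (i : ℕ) < k) :
    p (c.edge i z) ∈ c.Y1 k := by
  refine Or.inr (mem_iUnion₂.2 ⟨i, h, ?_⟩)
  exact ⟨z, rfl⟩

theorem face_mem_Y2 (c : PresCx Pr p) (j : Fin Pr.rels) (z : Dk 2) {k : ℕ} (h : (j : ℕ) < k) :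
    p (c.b j z) ∈ c.Y2 k := by
  refine Or.inr (mem_iUnion₂.2 ⟨j, h, ?_⟩)
  exact ⟨z, rfl⟩

theorem kap_inj (c : PresCx Pr p) (hc : c.Good) (y y' : KK Pr) (hy : isInt y) (hy' : isInt y')
    (h : kap c y = kap c y') : y = y' := by
  have n1 : ∀ (i : Fin Pr.gens) (z : Dk 1), ‖(z : Fin 1 → ℝ)‖ < 1 → p (c.edge i z) ∉ c.Y1 i :=
    fun i z hz => (hc.att1 i).int z hz
  have n2 : ∀ (j : Fin Pr.rels) (z : Dk 2), ‖(z : Fin 2 → ℝ)‖ < 1 → p (c.b j z) ∉ c.Y2 j :=
    fun j z hz => (hc.att2 j).int z hz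
  rcases y with y | ⟨i, z⟩ | ⟨j, z⟩ <;> rcases y' with y' | ⟨i', z'⟩ | ⟨j', z'⟩
  · rfl
  · exact (n1 i' z' hy' (mem_of_eq' h (e_mem_Y1 c i'))).elim
  · exact (n2 j' z' hy' (mem_of_eq' h (Or.inl (e_mem_Y1 c _)))).elim
  · exact (n1 i z hy (mem_of_eq' h.symm (e_mem_Y1 c i))).elim
  · rcases lt_trichotomy (i : ℕ) i' with hl | hl | hl
    · exact (n1 i' z' hy' (mem_of_eq' h (edge_mem_Y1 c i z hl))).elim
    · obtain rfl := Fin.ext hl
      rw [(hc.att1 i).inj z z' hy hy' h]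
    · exact (n1 i z hy (mem_of_eq' h.symm (edge_mem_Y1 c i' z' hl))).elim
  · exact (n2 j' z' hy' (mem_of_eq' h (Or.inl (edge_mem_Y1 c i z i.2)))).elim
  · exact (n2 j z hy (mem_of_eq' h.symm (Or.inl (e_mem_Y1 c _)))).elim
  · exact (n2 j z hy (mem_of_eq' h.symm (Or.inl (edge_mem_Y1 c i' z' i'.2)))).elim
  · rcases lt_trichotomy (j : ℕ) j' with hl | hl | hl
    · exact (n2 j' z' hy' (mem_of_eq' h (face_mem_Y2 c j z hl))).elim
    · obtain rfl := Fin.ext hl
      rw [(hc.att2 j).inj z z' hy hy' h]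
    · exact (n2 j z hy (mem_of_eq' h.symm (face_mem_Y2 c j' z' hl))).elim

theorem kap_mem (c : PresCx Pr p) (x : KK Pr) : kap c x ∈ c.Y := by
  rcases x with x | ⟨i, z⟩ | ⟨j, z⟩
  · exact Or.inl (e_mem_Y1 c _)
  · exact Or.inl (edge_mem_Y1 c i z i.2)
  · exact face_mem_Y2 c j z j.2

theorem kap_surj (c : PresCx Pr p) (x : X) (hx : x ∈ c.Y) : ∃ k, kap c k = x := by
  rcases hx with (hx | hx) | hx
  · exact ⟨Sum.inl (), (mem_singleton_iff.1 hx).symm⟩
  · obtain ⟨i, _, z, hz⟩ := mem_iUnion₂.1 hx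
    exact ⟨Sum.inr (Sum.inl (i, z)), hz⟩
  · obtain ⟨j, _, z, hz⟩ := mem_iUnion₂.1 hx
    exact ⟨Sum.inr (Sum.inr (j, z)), hz⟩

/-- the map to the complex -/
noncomputable def kapY (c : PresCx Pr p) (x : KK Pr) : c.Y := ⟨kap c x, kap_mem c x⟩

end

theorem specHom : SpecHom := by
  intro G X E X' E' _ _ _ _ _ _ p _ _ _ _ _ p' hp hp' Pr c c' hc hc'
  have h1 : ∀ (g : G) e, p (g • e) = p e := fun g e => hp.map_smul g
  have h2 : ∀ (g : G) e, p' (g • e) = p' e := fun g e => hp'.map_smul g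
  refine homeo_of_ker (kapY c) (kapY c') ((kap_cont c).subtype_mk _)
    ((kap_cont c').subtype_mk _) ?_ ?_ ?_
  · rintro ⟨x, hx⟩
    obtain ⟨k, hk⟩ := kap_surj c x hx
    exact ⟨k, Subtype.ext hk⟩
  · rintro ⟨x, hx⟩
    obtain ⟨k, hk⟩ := kap_surj c' x hx
    exact ⟨k, Subtype.ext hk⟩
  · intro a b
    obtain ⟨ya, ia, ea, ea'⟩ := nf c c' h1 h2 a
    obtain ⟨yb, ib, eb, eb'⟩ := nf c c' h1 h2 b
    constructor
    · intro h
      have h3 : kap c ya = kap c yb := by rw [← ea, ← eb]; exact congrArg Subtype.val h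
      have h4 := kap_inj c hc ya yb ia ib h3
      refine Subtype.ext ?_
      show kap c' a = kap c' b
      rw [ea', eb', h4]
    · intro h
      have h3 : kap c' ya = kap c' yb := by rw [← ea', ← eb']; exact congrArg Subtype.val h
      have h4 := kap_inj c' hc' ya yb ia ib h3
      refine Subtype.ext ?_
      show kap c a = kap c b
      rw [ea, eb, h4]

end Vale.Agent.P246.H252
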